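import Vale.Agent.P025.R2.H222.Ev2
import Vale.Agent.P025.R2.H222.Pol
import Vale.Agent.P025.R2.H109.Curve
import Vale.Agent.P025.R2.H572.LAaAdj

/-!
# P025 G-LA-b: an `l`-th power in the model algebra is an `l`-th power over `F1` (helper219)
-/

set_option linter.unusedSectionVars false

open Polynomial P025H373 P025H222 P025H572 P025H552

universe u v

namespace P025H219

/-- descent of `l`-th powers along an extension of degree prime to `l`. -/
theorem exists_pow_of_norm {l e : ℕ} (hle : Nat.Coprime l e) {M E : Type*} [Field M] [Field E]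
    [Algebra M E] (hd : Module.finrank M E ∣ e) {β : M} {z : E}
    (hz : z ^ l = algebraMap M E β) : ∃ w : M, w ^ l = β := by
  have h1 := congrArg (Algebra.norm M) hz
  rw [map_pow, Algebra.norm_algebraMap] at h1
  set d := Module.finrank M E
  have hc : Nat.Coprime l d := hle.coprime_dvd_right hd
  rcases eq_or_ne β 0 with rfl | hβ
  · rcases Nat.eq_zero_or_pos l with rfl | hl
    · rw [pow_zero, map_zero] at hz
      exact absurd hz one_ne_zero
    · exact ⟨0, zero_pow hl.ne'⟩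
  · set N := Algebra.norm M z
    have hN : N ≠ 0 ∨ l = 0 := by
      by_contra hcon
      push Not at hcon
      rw [hcon.1, zero_pow hcon.2] at h1
      exact pow_ne_zero d hβ h1.symm
    rcases hN with hN | hl
    · refine ⟨β ^ (Nat.gcdA l d) * N ^ (Nat.gcdB l d), ?_⟩
      have h2 : (1 : ℤ) = l * Nat.gcdA l d + d * Nat.gcdB l d := by
        rw [← Nat.gcd_eq_gcd_ab, Nat.coprime_iff_gcd_eq_one.1 hc, Nat.cast_one]
      calc (β ^ (Nat.gcdA l d) * N ^ (Nat.gcdB l d)) ^ l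
          = β ^ ((l : ℤ) * Nat.gcdA l d) * (N ^ l) ^ (Nat.gcdB l d) := by
            rw [mul_pow, ← zpow_natCast, ← zpow_natCast, ← zpow_mul, ← zpow_mul,
              mul_comm (Nat.gcdA l d), ← zpow_natCast N l, ← zpow_mul, mul_comm (l : ℤ)
              (Nat.gcdB l d)]
        _ = β ^ ((l : ℤ) * Nat.gcdA l d + d * Nat.gcdB l d) := by
            rw [h1, ← zpow_natCast β d, ← zpow_mul, zpow_add₀ hβ]
        _ = β := by rw [← h2, zpow_one]
    · subst hl
      have hd1 : d = 1 := by simpa using hc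
      rw [pow_zero, hd1, pow_one] at h1
      exact ⟨1, by rw [pow_zero, h1]⟩

section

variable {C : Type u} [Field C] [IsAlgClosed C]

/-- algebraic elements are constants -/
theorem const_of_isIntegral {E : Type v} [Field E] [Algebra C E] {ω : E} (h : IsIntegral C ω) :
    ∃ c : C, algebraMap C E c = ω :=
  (minpoly.mem_range_of_degree_eq_one C ω
    (IsAlgClosed.degree_eq_one_of_irreducible C (minpoly.irreducible h)))

/-- two ring homs on a ring generated by one element over `C(t)` are equal if they agree on the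
constants, on `t` and on the generator. -/
theorem hom_ext_adjoin {M' E : Type*} [CommRing M'] [Algebra (RatFunc C) M'] {T : M'}
    (hgen : Algebra.adjoin (RatFunc C) {T} = ⊤) [Field E] {f g : M' →+* E}
    (hC : ∀ c : C, f (algebraMap (RatFunc C) M' (RatFunc.C c)) =
      g (algebraMap (RatFunc C) M' (RatFunc.C c)))
    (hX : f (algebraMap (RatFunc C) M' RatFunc.X) = g (algebraMap (RatFunc C) M' RatFunc.X))
    (hT : f T = g T) : f = g := by
  have h0 : f.comp (algebraMap (RatFunc C) M') = g.comp (algebraMap (RatFunc C) M') := by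
    refine IsLocalization.ringHom_ext (nonZeroDivisors C[X]) ?_
    refine Polynomial.ringHom_ext (fun c => ?_) ?_
    · simp only [RingHom.comp_apply, RatFunc.algebraMap_C]
      exact hC c
    · simp only [RingHom.comp_apply, RatFunc.algebraMap_X]
      exact hX
  ext z
  have hz : z ∈ Algebra.adjoin (RatFunc C) {T} := by
    rw [hgen]
    trivial
  induction hz using Algebra.adjoin_induction with
  | mem x hx => rw [Set.mem_singleton_iff.1 hx, hT]
  | algebraMap r => exact RingHom.congr_fun h0 r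
  | add x y _ _ hx hy => rw [map_add, map_add, hx, hy]
  | mul x y _ _ hx hy => rw [map_mul, map_mul, hx, hy]

end

section

variable {C : Type u} [NontriviallyNormedField C] [IsUltrametricDist C] [CompleteSpace C]
  [IsAlgClosed C]

theorem iA2_sA : iA2 (sA : A2 C) = s2 C := by
  apply (algebraMap (F2 C) (F0 C)).injective
  rw [coe_s2]
  rfl

/-- the extension `M1(S)`, `S ^ e = P1`, receives `F2`. -/
theorem exists_ext {e : ℕ} (he : e ≠ 0)
    {M1 : Type v} [Field M1] [Algebra (F1 C) M1] [Algebra.IsAlgebraic (F1 C) M1]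
    {P1 : F1 C} (hP1 : (P1 : F0 C) ∈ A1 C) (hP1n : ‖(P1 : F0 C)‖ < 1)
    (hP1c : ∀ c : C, P1 ≠ algebraMap C (F1 C) c) :
    ∃ (E : Type v) (_ : Field E) (_ : Algebra M1 E) (S : E) (φ : F2 C →+* E),
      Module.finrank M1 E ∣ e ∧ S ^ e = algebraMap M1 E (algebraMap (F1 C) M1 P1) ∧ S ≠ 0 ∧
      φ (s2 C) = S ∧ ∀ c : C, φ (algebraMap C (F2 C) c) =
        algebraMap M1 E (algebraMap (F1 C) M1 (algebraMap C (F1 C) c)) := by
  classical
  let aC : Algebra C M1 := ((algebraMap (F1 C) M1).comp (algebraMap C (F1 C))).toAlgebra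
  have sC : IsScalarTower C (F1 C) M1 := IsScalarTower.of_algebraMap_eq fun _ => rfl
  set a : M1 := algebraMap (F1 C) M1 P1 with ha
  have ha0 : a ≠ 0 := by
    intro h0
    apply hP1c 0
    rw [map_zero]
    exact (map_eq_zero _).1 h0
  have hdeg : (X ^ e - Polynomial.C a).natDegree ≠ 0 := by
    rw [natDegree_X_pow_sub_C]
    exact he
  obtain ⟨g, hg, hgd⟩ := Polynomial.exists_irreducible_of_natDegree_ne_zero hdeg
  have : Fact (Irreducible g) := ⟨hg⟩
  set S : AdjoinRoot g := AdjoinRoot.root g with hSd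
  have hS : S ^ e = algebraMap M1 (AdjoinRoot g) a := by
    obtain ⟨k, hk⟩ := hgd
    have h1 : aeval S (X ^ e - Polynomial.C a) = 0 := by
      rw [hk, map_mul, AdjoinRoot.aeval_eq, AdjoinRoot.mk_self, zero_mul]
    rw [map_sub, map_pow, aeval_X, aeval_C, sub_eq_zero] at h1
    exact h1
  have hS0 : S ≠ 0 := by
    intro h0
    rw [h0, zero_pow he] at hS
    exact ha0 ((map_eq_zero _).1 hS.symm)
  have hadj : IntermediateField.adjoin M1 {S} = ⊤ :=
    adjoin_eq_top_of_surj (AlgHom.id M1 (AdjoinRoot g)) Function.surjective_id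
  have hroots : ∀ ω : AdjoinRoot g, ω ^ e = 1 → ∃ w : M1, algebraMap M1 (AdjoinRoot g) w = ω := by
    intro ω hω
    have h1 : IsIntegral C ω := ⟨X ^ e - 1, monic_X_pow_sub_C 1 he, by simp [hω]⟩
    obtain ⟨c, hc⟩ := const_of_isIntegral h1
    exact ⟨algebraMap C M1 c, by rw [← hc, ← IsScalarTower.algebraMap_apply]⟩
  obtain ⟨hfd, hdvd⟩ := P025H507.finrank_dvd hadj he ha0 hS hroots
  have halg : Algebra.IsAlgebraic (F1 C) (AdjoinRoot g) := Algebra.IsAlgebraic.trans (F1 C) M1 _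
  have htr : ∀ P : C[X], P ≠ 0 → aeval S P ≠ 0 := by
    intro P hP h0
    have h1 : IsIntegral C S := isAlgebraic_iff_isIntegral.1 ⟨P, hP, h0⟩
    obtain ⟨c, hc⟩ := const_of_isIntegral h1
    apply hP1c (c ^ e)
    apply (algebraMap (F1 C) M1).injective
    apply (algebraMap M1 (AdjoinRoot g)).injective
    rw [← ha, ← hS, ← hc, ← map_pow]
    rfl
  obtain ⟨φ, hφ⟩ := exists_hom_F1 (E1 := AdjoinRoot g) he hP1 hP1n (s := S) (by
    rw [hS, ha, ← IsScalarTower.algebraMap_apply]) htr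
  rw [iA2_sA] at hφ
  exact ⟨AdjoinRoot g, inferInstance, inferInstance, S, φ.toRingHom, hdvd, hS, hS0, hφ,
    fun c => φ.commutes c⟩

/-- the function `s ^ e = Q / b` on the disc -/
theorem Qp_facts {h : ℕ} (hh : h ≠ 0) {Y0 ρ b : C} (hY0 : Y0 ≠ 0) (hρ : ρ ≠ 0) (hb : b ≠ 0)
    (hQb : gp (Qp h Y0 ρ) < ‖b‖) {P1 : F1 C} (hP1d : P1 = algebraMap C (F1 C) b⁻¹ *
      algebraMap (RatFunc C) (F1 C) (algebraMap C[X] (RatFunc C) (Qp h Y0 ρ))) :
    (P1 : F0 C) ∈ A1 C ∧ ‖(P1 : F0 C)‖ < 1 ∧ ∀ c : C, P1 ≠ algebraMap C (F1 C) c := by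
  have hPc : (P1 : F0 C) = algebraMap C (F0 C) b⁻¹ *
      algebraMap (RatFunc C) (F0 C) (algebraMap C[X] (RatFunc C) (Qp h Y0 ρ)) := by
    rw [hP1d]
    rfl
  refine ⟨?_, ?_, ?_⟩
  · rw [hPc, algebraMap_poly_eq]
    exact (A1 C).mul_mem ((A1 C).algebraMap_mem _) (aeval_mem_A1 _)
  · rw [hPc, norm_mul, norm_algebraMap_C, P025H373.norm_algebraMap, gauss_poly, norm_inv,
      inv_mul_lt_iff₀ (norm_pos_iff.2 hb), mul_one]
    exact hQb
  · intro c hc
    have h1 : Qp h Y0 ρ = Polynomial.C (b * c) := by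
      have h2 : algebraMap (RatFunc C) (F1 C) (algebraMap C[X] (RatFunc C) (Qp h Y0 ρ)) =
          algebraMap (RatFunc C) (F1 C) (algebraMap C[X] (RatFunc C) (Polynomial.C (b * c))) := by
        have h3 : algebraMap (RatFunc C) (F1 C) (algebraMap C[X] (RatFunc C)
            (Polynomial.C (b * c))) = algebraMap C (F1 C) (b * c) := by
          rw [RatFunc.algebraMap_C]
          rfl
        rw [h3, map_mul, ← hc, hP1d, ← mul_assoc, ← map_mul, mul_inv_cancel₀ hb, map_one, one_mul]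
      exact RatFunc.algebraMap_injective C ((algebraMap (RatFunc C) (F1 C)).injective h2)
    have h4 := congrArg (Polynomial.eval 0) h1
    have h5 := congrArg (Polynomial.eval (-ρ⁻¹)) h1
    rw [Qp, eval_C] at h4 h5
    rw [eval_sub, eval_mul, eval_pow, eval_add, eval_mul, eval_C, eval_C, eval_X, eval_one,
      mul_neg, mul_inv_cancel₀ hρ, add_neg_cancel, zero_pow hh, mul_zero] at h5
    rw [eval_sub, eval_mul, eval_pow, eval_add, eval_mul, eval_C, eval_C, eval_X, eval_one,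
      mul_zero, add_zero, one_pow, mul_one] at h4
    exact pow_ne_zero h hY0 (by linear_combination h4 - h5)

/-- the algebra of the curve: the image of the root -/
theorem curve_alg {p h e e' q : ℕ} (hp : p ≠ 0) (hee : e = p * e') (hq : q = p * h)
    {κ Y0 ρ γ b : C}
    (hκ : κ ≠ 1) (hY0 : Y0 ≠ 0) (hb : b ≠ 0) (hyh : Y0 ^ h * (κ - 1) = κ)
    (hγ : γ ^ p * Y0 ^ (h + 1) = κ * b) {E : Type*} [Field E] (ι : C →+* E) {S T X1 : E}
    (hS0 : S ≠ 0) (hSe : ι b * S ^ e = (ι Y0) ^ h * (1 + ι ρ * X1) ^ h - 1)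
    (hTe : T ^ p = (ι κ - 1) * (1 + ι ρ * X1) * (ι b * S ^ e)) :
    ι γ ≠ 0 ∧ (T / (ι γ * S ^ e')) ^ p = ι Y0 * (1 + ι ρ * X1) ∧
      (T / (ι γ * S ^ e')) ^ q = 1 + ι b * S ^ e := by
  have hκ0 : κ ≠ 0 := by
    rw [← hyh]
    exact mul_ne_zero (pow_ne_zero _ hY0) (sub_ne_zero.2 hκ)
  have hγ0 : γ ≠ 0 := by
    rintro rfl
    rw [zero_pow hp, zero_mul] at hγ
    exact mul_ne_zero hκ0 hb hγ.symm
  have hγι : ι γ ≠ 0 := by simpa using hγ0
  have hyp : (T / (ι γ * S ^ e')) ^ p = ι Y0 * (1 + ι ρ * X1) := by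
    have h2 : (ι γ * S ^ e') ^ p = ι γ ^ p * S ^ e := by
      rw [mul_pow, ← pow_mul, mul_comm e' p, ← hee]
    rw [div_pow, hTe, h2, div_eq_iff (mul_ne_zero (pow_ne_zero _ hγι) (pow_ne_zero _ hS0))]
    have h3 : (ι κ - 1) * ι b = ι Y0 * ι γ ^ p := by
      rw [← map_one ι, ← map_sub, ← map_mul, ← map_pow, ← map_mul]
      congr 1
      have h4 : Y0 ^ h ≠ 0 := pow_ne_zero _ hY0
      apply mul_left_cancel₀ h4
      linear_combination b * hyh - hγ
    linear_combination (1 + ι ρ * X1) * S ^ e * h3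
  refine ⟨hγι, hyp, ?_⟩
  rw [hq, pow_mul, hyp, hSe, mul_pow]
  ring

/-- the evaluation of polynomials along `t ↦ X1` -/
theorem eval_poly {M' E : Type*} [CommRing M'] [Algebra (RatFunc C) M'] [Field E] (g : M' →+* E)
    {ι : C →+* E} (hC : ∀ c : C, g (algebraMap (RatFunc C) M' (RatFunc.C c)) = ι c) (P : C[X]) :
    g (algebraMap (RatFunc C) M' (algebraMap C[X] (RatFunc C) P)) =
      P.eval₂ ι (g (algebraMap (RatFunc C) M' RatFunc.X)) := by
  have h1 : ((g.comp (algebraMap (RatFunc C) M')).comp (algebraMap C[X] (RatFunc C))) =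
      eval₂RingHom ι (g (algebraMap (RatFunc C) M' RatFunc.X)) := by
    refine Polynomial.ringHom_ext (fun c => ?_) ?_
    · simp only [RingHom.comp_apply, RatFunc.algebraMap_C, coe_eval₂RingHom, eval₂_C]
      exact hC c
    · simp only [RingHom.comp_apply, RatFunc.algebraMap_X, coe_eval₂RingHom, eval₂_X]
  exact RingHom.congr_fun h1 P

/-- the two maps to the field `E` agree -/
theorem ext_step {p e' : ℕ} {Y0 ρ γ : C} (hY0 : Y0 ≠ 0) (hρ : ρ ≠ 0)
    {M' E B : Type*} [CommRing M'] [Algebra (RatFunc C) M'] [Field E] [CommRing B] {T : M'}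
    (hgen : Algebra.adjoin (RatFunc C) {T} = ⊤)
    {f : M' →+* B} {cB : C →+* B} {yB sB : B}
    (hfC : ∀ c, f (algebraMap (RatFunc C) M' (RatFunc.C c)) = cB c)
    (hfX : f (algebraMap (RatFunc C) M' (1 + RatFunc.C ρ * RatFunc.X)) * cB Y0 = yB ^ p)
    (hfT : f T = cB γ * sB ^ e' * yB) {ψ : B →+* E} {g : M' →+* E} {ι : C →+* E} {S : E}
    (hC : ∀ c : C, g (algebraMap (RatFunc C) M' (RatFunc.C c)) = ι c)
    (hψc : ∀ c : C, ψ (cB c) = ι c) (hψs : ψ sB = S) (hψy : ψ yB = g T / (ι γ * S ^ e'))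
    (hy : (g T / (ι γ * S ^ e')) ^ p =
      ι Y0 * (1 + ι ρ * g (algebraMap (RatFunc C) M' RatFunc.X)))
    (hγ : ι γ ≠ 0) (hS : S ≠ 0) : ψ.comp f = g := by
  refine hom_ext_adjoin hgen (fun c => ?_) ?_ ?_
  · rw [RingHom.comp_apply, hfC, hψc, hC]
  · have h1 := congrArg ψ hfX
    rw [map_mul, hψc, map_pow, hψy, hy, map_add, map_mul, map_one, map_add, map_mul, map_one,
      hfC, map_add, map_mul, map_one, hψc] at h1
    rw [RingHom.comp_apply]
    have hρι : ι ρ ≠ 0 := by simpa using hρ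
    have hYι : ι Y0 ≠ 0 := by simpa using hY0
    apply mul_left_cancel₀ hρι
    apply mul_left_cancel₀ hYι
    linear_combination h1
  · rw [RingHom.comp_apply, hfT, map_mul, map_mul, map_pow, hψc, hψs, hψy]
    have h1 : ι γ * S ^ e' ≠ 0 := mul_ne_zero hγ (pow_ne_zero _ hS)
    rw [mul_div_cancel₀ _ h1]

/-- the equations of the curve in `E` -/
theorem curve_eqs {p h e : ℕ} {κ Y0 ρ b : C} (hb : b ≠ 0) (hyh : Y0 ^ h * (κ - 1) = κ)
    {M' : Type*} [CommRing M'] [Algebra (RatFunc C) M'] {T : M'}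
    (hT : T ^ p = algebraMap (RatFunc C) M' (algebraMap C[X] (RatFunc C) (Ph h κ ρ)))
    {M1 : Type v} [Field M1] [Algebra (F1 C) M1] (j : M' →+* M1)
    (hj : ∀ r : RatFunc C, j (algebraMap (RatFunc C) M' r) =
      algebraMap (F1 C) M1 (algebraMap (RatFunc C) (F1 C) r))
    {P1 : F1 C} (hP1d : P1 = algebraMap C (F1 C) b⁻¹ *
      algebraMap (RatFunc C) (F1 C) (algebraMap C[X] (RatFunc C) (Qp h Y0 ρ)))
    {E : Type*} [Field E] (J : M1 →+* E) {ι : C →+* E}
    (hι : ∀ c : C, ι c = J (algebraMap (F1 C) M1 (algebraMap C (F1 C) c))) {S : E}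
    (hS : S ^ e = J (algebraMap (F1 C) M1 P1)) :
    (∀ c : C, (J.comp j) (algebraMap (RatFunc C) M' (RatFunc.C c)) = ι c) ∧
    ι b * S ^ e = (ι Y0) ^ h * (1 + ι ρ * (J.comp j) (algebraMap (RatFunc C) M' RatFunc.X)) ^ h - 1 ∧
    ((J.comp j) T) ^ p = (ι κ - 1) * (1 + ι ρ * (J.comp j) (algebraMap (RatFunc C) M' RatFunc.X)) *
      (ι b * S ^ e) := by
  have hC : ∀ c : C, (J.comp j) (algebraMap (RatFunc C) M' (RatFunc.C c)) = ι c := by
    intro c
    rw [RingHom.comp_apply, hj, hι]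
    rfl
  have hSe : ι b * S ^ e = (ι Y0) ^ h *
      (1 + ι ρ * (J.comp j) (algebraMap (RatFunc C) M' RatFunc.X)) ^ h - 1 := by
    have h1 : ι b * S ^ e =
        (Qp h Y0 ρ).eval₂ ι ((J.comp j) (algebraMap (RatFunc C) M' RatFunc.X)) := by
      rw [← eval_poly (J.comp j) hC, RingHom.comp_apply, hj, hS, hP1d, hι, ← map_mul, ← map_mul,
        ← mul_assoc, ← map_mul, mul_inv_cancel₀ hb, map_one, one_mul]
    rw [h1, Qp]
    simp only [eval₂_sub, eval₂_mul, eval₂_pow, eval₂_add, eval₂_C, eval₂_X, eval₂_one, map_pow]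
  refine ⟨hC, hSe, ?_⟩
  rw [← map_pow, hT, eval_poly (J.comp j) hC, Ph_eq ρ hyh, hSe, Qp]
  simp only [eval₂_sub, eval₂_mul, eval₂_pow, eval₂_add, eval₂_C, eval₂_X, eval₂_one, map_pow,
    map_sub, map_one]

/-- **(v)** if the image of `β` in the model algebra is an `l`-th power, then `β` is an `l`-th
power in the field `M1` over `F1`. -/
theorem exists_pow_of_model {p h l e e' q : ℕ} (hp : p ≠ 0) (hh : h ≠ 0)
    (hle : Nat.Coprime l e) (he : e ≠ 0) (hee : e = p * e') (hq : q = p * h) {κ Y0 ρ γ b : C}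
    (hκ : κ ≠ 1) (hY0 : Y0 ≠ 0) (hρ : ρ ≠ 0) (hb : b ≠ 0) (hyh : Y0 ^ h * (κ - 1) = κ)
    (hγ : γ ^ p * Y0 ^ (h + 1) = κ * b) (hQb : gp (Qp h Y0 ρ) < ‖b‖)
    {M' : Type*} [CommRing M'] [Algebra (RatFunc C) M'] {T : M'}
    (hT : T ^ p = algebraMap (RatFunc C) M' (algebraMap C[X] (RatFunc C) (Ph h κ ρ)))
    (hgen : Algebra.adjoin (RatFunc C) {T} = ⊤)
    (f : M' →+* AdjoinRoot (X ^ q - Polynomial.C (xb b e) : (F2 C)[X]))
    (hfC : ∀ c, f (algebraMap (RatFunc C) M' (RatFunc.C c)) = cst q (xb b e) c)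
    (hfX : f (algebraMap (RatFunc C) M' (1 + RatFunc.C ρ * RatFunc.X)) * cst q (xb b e) Y0 =
      AdjoinRoot.root (X ^ q - Polynomial.C (xb b e) : (F2 C)[X]) ^ p)
    (hfT : f T = cst q (xb b e) γ *
      (AdjoinRoot.of (X ^ q - Polynomial.C (xb b e) : (F2 C)[X]) (s2 C)) ^ e' *
      AdjoinRoot.root (X ^ q - Polynomial.C (xb b e) : (F2 C)[X]))
    {M1 : Type v} [Field M1] [Algebra (F1 C) M1] [Algebra.IsAlgebraic (F1 C) M1] (j : M' →+* M1)
    (hj : ∀ r : RatFunc C, j (algebraMap (RatFunc C) M' r) =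
      algebraMap (F1 C) M1 (algebraMap (RatFunc C) (F1 C) r))
    {β : M'} {z : AdjoinRoot (X ^ q - Polynomial.C (xb b e) : (F2 C)[X])} (hz : z ^ l = f β) :
    ∃ w : M1, w ^ l = j β := by
  obtain ⟨P1, hP1d⟩ : ∃ P1 : F1 C, P1 = algebraMap C (F1 C) b⁻¹ *
      algebraMap (RatFunc C) (F1 C) (algebraMap C[X] (RatFunc C) (Qp h Y0 ρ)) := ⟨_, rfl⟩
  obtain ⟨hP1, hP1n, hP1c⟩ := Qp_facts hh hY0 hρ hb hQb hP1d
  obtain ⟨E, iF, iA, S, φ, hdvd, hS, hS0, hφ, hφc⟩ := exists_ext he (M1 := M1) hP1 hP1n hP1c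
  obtain ⟨ι, hι⟩ : ∃ ι : C →+* E, ∀ c : C, ι c =
      algebraMap M1 E (algebraMap (F1 C) M1 (algebraMap C (F1 C) c)) :=
    ⟨((algebraMap M1 E).comp (algebraMap (F1 C) M1)).comp (algebraMap C (F1 C)), fun _ => rfl⟩
  obtain ⟨hC, hSe, hTe⟩ := curve_eqs hb hyh hT j hj hP1d (algebraMap M1 E) hι hS
  obtain ⟨hγι, hyp, hyq⟩ := curve_alg hp hee hq hκ hY0 hb hyh hγ ι hS0 hSe hTe
  have hyq' : ((((algebraMap M1 E).comp j) T) / (ι γ * S ^ e')) ^ q = φ (xb b e) := by
    rw [hyq, xb, map_add, map_one, map_mul, map_pow, hφ, hφc, hι]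
  -- the map of the model algebra
  obtain ⟨ψ, hψr, hψo⟩ : ∃ ψ : AdjoinRoot (X ^ q - Polynomial.C (xb b e) : (F2 C)[X]) →+* E,
      ψ (AdjoinRoot.root _) = (((algebraMap M1 E).comp j) T) / (ι γ * S ^ e') ∧
      ∀ x : F2 C, ψ (AdjoinRoot.of _ x) = φ x :=
    ⟨AdjoinRoot.lift φ _ (by
      rw [eval₂_sub, eval₂_X_pow, eval₂_C, hyq']
      exact sub_self _), AdjoinRoot.lift_root _, fun x => AdjoinRoot.lift_of _⟩
  have hψc : ∀ c : C, ψ (cst q (xb b e) c) = ι c := fun c => by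
    have h1 : cst q (xb b e) c = AdjoinRoot.of _ (algebraMap C (F2 C) c) := rfl
    rw [h1, hψo, hφc, hι]
  have hext : ψ.comp f = (algebraMap M1 E).comp j :=
    ext_step hY0 hρ hgen hfC hfX hfT hC hψc (by rw [hψo, hφ]) hψr hyp hγι hS0
  have hz2 := congrArg ψ hz
  rw [map_pow, ← RingHom.comp_apply, hext] at hz2
  exact exists_pow_of_norm hle hdvd hz2

end

end P025H219
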