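import Vale.Agent.P025.R2.H222.Def
import Vale.Agent.P025.R2.H219.Red

/-!
# P025 G-LA-b, piece P7 (helper219)
-/

universe u

namespace P025H222

open Polynomial P025H373 P025H552 TensorProduct P025H572

noncomputable section

variable {C : Type u} [NontriviallyNormedField C] [IsUltrametricDist C] [CompleteSpace C]
  [IsAlgClosed C] [CharZero C]

variable {p h l : ℕ} {ζ κ Y0 ρ : C} {A V : C[X]}

/-- P7 : an `l`-th power in `B` is an `l`-th power in every finite extension `K1` of `F1 C`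
containing `L` -/
theorem pow_of_pow_BB (d : Dat p h l ζ κ Y0 ρ A V) (hp : p.Prime) (hl : l.Prime) (hlp : l ≠ p)
    (hh : h ≠ 0) {b γ : C} {q e e' j : ℕ}
    (hq : q = p * h) (he : e = e' * p) (he' : e' ≠ 0) (hej : e = p ^ j)
    (hhb : ‖(h : C)‖ < ‖b‖) (hb1 : ‖b‖ < 1) (hγ : γ ^ p * Y0 = b * (κ - 1))
    {ψ : LL C p h κ ρ →+* BB q e b} (hψ : IsPsi p h κ Y0 ρ γ b q e e' ψ)
    {K1 : Type u} [Field K1] [Algebra (F1 C) K1] [FiniteDimensional (F1 C) K1]
    (χ : LL C p h κ ρ →+* K1)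
    (hχ : ∀ f : RatFunc C, χ (algebraMap (RatFunc C) (LL C p h κ ρ) f) =
      algebraMap (F1 C) K1 (algebraMap (RatFunc C) (F1 C) f))
    {β : LL C p h κ ρ} (hβ : χ β ≠ 0) {z : BB q e b} (hz : z ^ l = ψ β) :
    ∃ w : K1, w ^ l = χ β := by
  have hb : b ≠ 0 := by
    rintro rfl
    rw [norm_zero] at hhb
    exact absurd hhb (not_lt.2 (norm_nonneg _))
  have hle : Nat.Coprime l e := by
    rw [hej]
    exact ((Nat.coprime_primes hl hp).2 hlp).pow_right j
  have he0 : e ≠ 0 := by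
    rw [he]
    exact mul_ne_zero he' hp.ne_zero
  have hT : (AdjoinRoot.root (X ^ p - Polynomial.C (algebraMap C[X] (RatFunc C) (Ph h κ ρ)) :
      (RatFunc C)[X])) ^ p = algebraMap (RatFunc C) (LL C p h κ ρ)
        (algebraMap C[X] (RatFunc C) (Ph h κ ρ)) := root_pow _ _
  refine P025H219.exists_pow_of_model (γ := γ) hp.ne_zero hh hle he0 (he.trans (mul_comm _ _)) hq d.kne
    d.yne d.rne hb d.yh ?_ (d.hq.trans_lt hhb) hT (AdjoinRoot.adjoinRoot_eq_top) ψ
    (fun c => hψ.cst c) ?_ ?_ χ hχ hz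
  · linear_combination Y0 ^ h * hγ + b * d.yh
  · rw [mul_comm, ← hψ.tt, map_add, map_mul, map_one, map_add, map_mul, map_one]
    congr 3
    exact hψ.cst ρ
  · rw [hψ.TT, map_pow]

end

end P025H222
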