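import Vale.Agent.P025.R2.H941.OM2

/-!
# P025 G-HT (6.1), part (S): the traces of logarithmic derivatives are bounded (helper219)

`K / C(t)` finite, `D` a derivation of `K / C`, `x ∈ K`: the Gauss norm of
`Tr (x ⬝ D h / h)` is bounded, uniformly in `h`.
-/

universe u v

namespace P025H219

open P025H373 P025H16 P025H587 P025H941 IntermediateField

section

variable {C : Type u} [NontriviallyNormedField C] [IsUltrametricDist C] [CompleteSpace C]
  [IsAlgClosed C] [CharZero C]

/-- The spectral norm of an intermediate extension. -/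
theorem snAbs_val {Ω : Type v} [Field Ω] [Algebra (F0 C) Ω] [Algebra.IsAlgebraic (F0 C) Ω]
    (E : IntermediateField (F0 C) Ω) (x : E) : snAbs C E x = snAbs C Ω (x : Ω) := by
  let := nnF0 C
  rw [snAbs_apply, snAbs_apply, sn, sn]
  exact spectralNorm.eq_of_tower (K := F0 C) (E := E) (L := Ω) x

variable {K : Type v} [Field K] [Algebra C K] [Algebra (RatFunc C) K]
  [IsScalarTower C (RatFunc C) K] [FiniteDimensional (RatFunc C) K]

/-- One embedding: the logarithmic derivatives are bounded. -/
theorem exists_bdd_emb (D : Derivation C K K)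
    (σ : K →ₐ[RatFunc C] AlgebraicClosure (F0 C)) :
    ∃ A : ℝ, 0 ≤ A ∧ ∀ h : K, snAbs C (AlgebraicClosure (F0 C)) (σ (D h)) ≤
      A * snAbs C (AlgebraicClosure (F0 C)) (σ h) := by
  classical
  let b := Module.finBasis (RatFunc C) K
  let E : IntermediateField (F0 C) (AlgebraicClosure (F0 C)) :=
    IntermediateField.adjoin (F0 C) (Set.range fun i => σ (b i))
  have hfd : FiniteDimensional (F0 C) E := by
    refine IntermediateField.finiteDimensional_adjoin fun x _ => ?_
    exact (Algebra.IsAlgebraic.isAlgebraic (R := F0 C) x).isIntegral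
  have hmem : ∀ x : K, σ x ∈ E := by
    intro x
    rw [← b.sum_repr x, map_sum]
    refine sum_mem fun i _ => ?_
    rw [map_smul, Algebra.smul_def]
    refine mul_mem ?_ (IntermediateField.subset_adjoin _ _ ⟨i, rfl⟩)
    rw [IsScalarTower.algebraMap_apply (RatFunc C) (F0 C) (AlgebraicClosure (F0 C))]
    exact E.algebraMap_mem _
  let f : K →+* E := σ.toRingHom.codRestrict E.toSubring hmem
  let _ : Algebra K E := f.toAlgebra
  have hval : ∀ x : K, ((algebraMap K E x : E) : AlgebraicClosure (F0 C)) = σ x := fun _ => rfl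
  have hc : ∀ a : RatFunc C, algebraMap K E (algebraMap (RatFunc C) K a) =
      algebraMap (F0 C) E (algebraMap (RatFunc C) (F0 C) a) := by
    intro a
    apply Subtype.ext
    rw [hval, AlgHom.commutes]
    exact IsScalarTower.algebraMap_apply (RatFunc C) (F0 C) (AlgebraicClosure (F0 C)) a
  obtain ⟨dE, hdE, A, hA0, hA⟩ := exists_der (C := C) E
  refine ⟨snAbs C E (algebraMap K E (D (algebraMap (RatFunc C) K RatFunc.X))) * A,
    mul_nonneg ((snAbs C E).nonneg _) hA0, fun h => ?_⟩
  rw [← hval, ← hval, ← snAbs_val, ← snAbs_val, der_eq hc D dE hdE h, map_mul, mul_assoc]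
  exact mul_le_mul_of_nonneg_left (hA _) ((snAbs C E).nonneg _)

/-- **(S)**: the traces of the logarithmic derivatives are bounded for the Gauss norm. -/
theorem exists_trace_bound (D : Derivation C K K) (x : K) :
    ∃ A : ℝ, 0 ≤ A ∧ ∀ h : K, h ≠ 0 →
      gauss C (Algebra.trace (RatFunc C) K (x * (D h / h))) ≤ A := by
  classical
  have : CharZero (RatFunc C) :=
    charZero_of_injective_algebraMap (algebraMap C (RatFunc C)).injective
  choose A hA0 hA using fun σ : K →ₐ[RatFunc C] AlgebraicClosure (F0 C) =>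
    exists_bdd_emb D σ
  refine ⟨∑ σ, snAbs C (AlgebraicClosure (F0 C)) (σ x) * A σ, Finset.sum_nonneg fun σ _ =>
    mul_nonneg ((snAbs C _).nonneg _) (hA0 σ), fun h hh => ?_⟩
  have h1 := trace_eq_sum_embeddings (K := RatFunc C) (L := K) (AlgebraicClosure (F0 C))
    (x := x * (D h / h))
  rw [IsScalarTower.algebraMap_apply (RatFunc C) (F0 C) (AlgebraicClosure (F0 C))] at h1
  have h2 : gauss C (Algebra.trace (RatFunc C) K (x * (D h / h))) =
      snAbs C (AlgebraicClosure (F0 C)) (∑ σ : K →ₐ[RatFunc C] AlgebraicClosure (F0 C),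
        σ (x * (D h / h))) := by
    rw [← h1, snAbs_algebraMap, P025H373.norm_algebraMap]
  rw [h2]
  refine ((snAbs C _).sum_le _ _).trans (Finset.sum_le_sum fun σ _ => ?_)
  rw [map_mul, map_mul, map_div₀, map_div₀]
  refine mul_le_mul_of_nonneg_left ?_ ((snAbs C _).nonneg _)
  have hpos : 0 < snAbs C (AlgebraicClosure (F0 C)) (σ h) :=
    (snAbs C _).pos ((map_ne_zero σ).2 hh)
  rw [div_le_iff₀ hpos]
  exact hA σ h

end

end P025H219
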