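import Vale.Agent.P025.R2.H373.Defs
import Vale.Agent.P025.R2.H587.HTDefs

/-!
# P025 G-HT (6.1), part (N): polar parts with respect to an arbitrary norm of `C(t)` (helper219)
-/

open Polynomial

set_option linter.unusedSectionVars false

universe u v

namespace P025H219

open P025H373

section

variable {C : Type u} [NontriviallyNormedField C] [IsUltrametricDist C] [CompleteSpace C]

/-- The distance of `t` to the constants is positive for every norm, and comparable to
`max 1 |a|`. -/
theorem exists_dist (w : AbsoluteValue (RatFunc C) ℝ) (hna : IsNonarchimedean w)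
    (hc : ∀ c : C, w (RatFunc.C c) = ‖c‖) :
    ∃ δ : ℝ, 0 < δ ∧ ∀ a : C, δ ≤ w (RatFunc.X - RatFunc.C a) := by
  by_contra hcon
  push Not at hcon
  -- a sequence of constants tending to `t`
  have h1 : ∀ n : ℕ, ∃ a : C, w (RatFunc.X - RatFunc.C a) < (1 / 2) ^ n := fun n =>
    hcon _ (by positivity)
  choose a ha using h1
  have hd : ∀ n, dist (a n) (a (n + 1)) ≤ 1 * (1 / 2) ^ n := by
    intro n
    rw [dist_eq_norm, ← hc, map_sub, one_mul]
    have e : RatFunc.C (a n) - RatFunc.C (a (n + 1)) =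
        (RatFunc.X - RatFunc.C (a (n + 1))) - (RatFunc.X - RatFunc.C (a n)) := by ring
    rw [e, sub_eq_add_neg]
    refine (hna _ _).trans (max_le ?_ ?_)
    · refine (ha (n + 1)).le.trans ?_
      rw [pow_succ]
      have : (0 : ℝ) < (1 / 2) ^ n := by positivity
      linarith
    · rw [w.map_neg]
      exact (ha n).le
  have hcs : CauchySeq a := cauchySeq_of_le_geometric (1 / 2) 1 (by norm_num) hd
  obtain ⟨l, hl⟩ := cauchySeq_tendsto_of_complete hcs
  have h2 : ∀ n, dist (a n) l ≤ 1 * (1 / 2) ^ n / (1 - 1 / 2) :=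
    dist_le_of_le_geometric_of_tendsto (1 / 2) 1 (by norm_num) hd hl
  have h3 : ∀ n : ℕ, w (RatFunc.X - RatFunc.C l) ≤ 2 * (1 / 2) ^ n := by
    intro n
    have e : RatFunc.X - RatFunc.C l =
        (RatFunc.X - RatFunc.C (a n)) + RatFunc.C (a n - l) := by
      rw [map_sub]; ring
    rw [e]
    have h4 := h2 n
    rw [dist_eq_norm] at h4
    have h5 : (0 : ℝ) < (1 / 2) ^ n := by positivity
    refine (hna _ _).trans (max_le ((ha n).le.trans (by linarith)) ?_)
    rw [hc]
    refine h4.trans (le_of_eq ?_)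
    ring
  have h6 : w (RatFunc.X - RatFunc.C l) ≤ 0 := by
    have h7 : Filter.Tendsto (fun n : ℕ => 2 * (1 / 2 : ℝ) ^ n) Filter.atTop (nhds (2 * 0)) :=
      (tendsto_pow_atTop_nhds_zero_of_lt_one (by norm_num) (by norm_num)).const_mul 2
    rw [mul_zero] at h7
    exact ge_of_tendsto' h7 h3
  have h8 : RatFunc.X - RatFunc.C l = 0 := (w.nonpos_iff.1 h6)
  have h9 : (RatFunc.X : RatFunc C) = RatFunc.C l := sub_eq_zero.1 h8
  rw [← RatFunc.algebraMap_X, ← RatFunc.algebraMap_C] at h9
  exact Polynomial.X_ne_C l (RatFunc.algebraMap_injective C h9)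

/-- The polynomial part of `r / (t - a)`, `|a| > 1`. -/
noncomputable def pa (d : ℕ) (a r : C) : C[X] :=
  ∑ i ∈ Finset.range (d + 1), Polynomial.monomial i (-(r / a ^ (i + 1)))

theorem natDegree_pa (d : ℕ) (a r : C) : (pa d a r).natDegree ≤ d := by
  refine Polynomial.natDegree_sum_le_of_forall_le _ _ fun i hi => ?_
  exact (Polynomial.natDegree_monomial_le _).trans (Nat.lt_succ_iff.1 (Finset.mem_range.1 hi))

theorem X_sub_C_ne (a : C) : (RatFunc.X - RatFunc.C a : RatFunc C) ≠ 0 := by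
  intro h
  have h9 : (RatFunc.X : RatFunc C) = RatFunc.C a := sub_eq_zero.1 h
  rw [← RatFunc.algebraMap_X, ← RatFunc.algebraMap_C] at h9
  exact Polynomial.X_ne_C a (RatFunc.algebraMap_injective C h9)

theorem split_pa (d : ℕ) {a : C} (ha : a ≠ 0) (r : C) :
    RatFunc.C r / (RatFunc.X - RatFunc.C a) = algebraMap C[X] (RatFunc C) (pa d a r) +
      (RatFunc.X / RatFunc.C a) ^ (d + 1) * (RatFunc.C r / (RatFunc.X - RatFunc.C a)) := by
  have hX := X_sub_C_ne a
  have hCa : (RatFunc.C a : RatFunc C) ≠ 0 := (_root_.map_ne_zero _).2 ha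
  have hpa : algebraMap C[X] (RatFunc C) (pa d a r) =
      -(RatFunc.C r / RatFunc.C a) * ∑ i ∈ Finset.range (d + 1),
        (RatFunc.X / RatFunc.C a) ^ i := by
    rw [pa, map_sum, Finset.mul_sum]
    refine Finset.sum_congr rfl fun i _ => ?_
    rw [← Polynomial.C_mul_X_pow_eq_monomial, map_mul, map_pow, RatFunc.algebraMap_C,
      RatFunc.algebraMap_X, map_neg, map_div₀, map_pow, div_pow, pow_succ]
    field_simp
  have hg := mul_neg_geom_sum (RatFunc.X / RatFunc.C a : RatFunc C) (d + 1)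
  have h1 : (1 - RatFunc.X / RatFunc.C a : RatFunc C) ≠ 0 := by
    intro h
    apply hX
    have h2 : (RatFunc.X / RatFunc.C a : RatFunc C) = 1 := (sub_eq_zero.1 h).symm
    rw [div_eq_one_iff_eq hCa] at h2
    rw [h2, sub_self]
  have h2 : RatFunc.C r / (RatFunc.X - RatFunc.C a) =
      -(RatFunc.C r / RatFunc.C a) / (1 - RatFunc.X / RatFunc.C a) := by
    rw [div_eq_div_iff hX h1]
    field_simp
    ring
  rw [hpa, h2]
  rw [eq_comm, ← sub_eq_zero]
  have h3 : (∑ i ∈ Finset.range (d + 1), (RatFunc.X / RatFunc.C a : RatFunc C) ^ i) =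
      (1 - (RatFunc.X / RatFunc.C a) ^ (d + 1)) / (1 - RatFunc.X / RatFunc.C a) := by
    rw [eq_div_iff h1, mul_comm]; exact hg
  rw [h3]
  ring

/-- The polynomial part of the sum of the polar parts. -/
noncomputable def pp (d : ℕ) (S : Finset C) (r : C → C) : C[X] :=
  ∑ a ∈ S, if 1 < ‖a‖ then pa d a (r a) else 0

theorem natDegree_pp (d : ℕ) (S : Finset C) (r : C → C) : (pp d S r).natDegree ≤ d := by
  refine Polynomial.natDegree_sum_le_of_forall_le _ _ fun a _ => ?_
  split_ifs
  · exact natDegree_pa _ _ _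
  · simp

/-- **(N)**: the polar parts are bounded for every norm, up to a polynomial of degree `≤ d`. -/
theorem exists_polar_bound (w : AbsoluteValue (RatFunc C) ℝ) (hna : IsNonarchimedean w)
    (hc : ∀ c : C, w (RatFunc.C c) = ‖c‖) (M : ℝ) (d : ℕ) :
    ∃ A : ℝ, 0 ≤ A ∧ ∀ (S : Finset C) (r : C → C),
      (∀ a ∈ S, ‖r a‖ ≤ M * max 1 ‖a‖ ^ d) →
      w (∑ a ∈ S, RatFunc.C (r a) / (RatFunc.X - RatFunc.C a) -
        algebraMap C[X] (RatFunc C) (pp d S r)) ≤ A := by
  obtain ⟨δ, hδ, hd⟩ := exists_dist w hna hc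
  set N : ℝ := max M 0 with hN
  have hN0 : 0 ≤ N := le_max_right _ _
  set T : ℝ := w RatFunc.X with hT
  have hT0 : 0 ≤ T := w.nonneg _
  refine ⟨max (N / δ) (T ^ (d + 1) * (N / δ)), by positivity, fun S r hr => ?_⟩
  rw [pp, map_sum, ← Finset.sum_sub_distrib]
  have hA0 : 0 ≤ max (N / δ) (T ^ (d + 1) * (N / δ)) := by positivity
  have hsum : ∀ (S' : Finset C) (g : C → RatFunc C),
      (∀ a ∈ S', w (g a) ≤ max (N / δ) (T ^ (d + 1) * (N / δ))) →
      w (∑ a ∈ S', g a) ≤ max (N / δ) (T ^ (d + 1) * (N / δ)) := by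
    intro S' g
    classical
    induction S' using Finset.induction_on with
    | empty => intro _; rw [Finset.sum_empty, map_zero]; exact hA0
    | insert a s ha ih =>
      intro h
      rw [Finset.sum_insert ha]
      exact (hna _ _).trans (max_le (h a (Finset.mem_insert_self a s))
        (ih fun b hb => h b (Finset.mem_insert_of_mem hb)))
  refine hsum S _ fun a ha => ?_
  have hra : ‖r a‖ ≤ N * max 1 ‖a‖ ^ d := by
    refine (hr a ha).trans ?_
    have : 0 ≤ max 1 ‖a‖ ^ d := by positivity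
    exact mul_le_mul_of_nonneg_right (le_max_left _ _) this
  have hda := hd a
  by_cases h1 : 1 < ‖a‖
  · have ha0 : a ≠ 0 := by
      rintro rfl
      rw [norm_zero] at h1
      linarith
    rw [if_pos h1, split_pa d ha0 (r a)]
    rw [add_sub_cancel_left, map_mul, map_pow, map_div₀, map_div₀, hc, hc]
    refine le_max_of_le_right ?_
    rw [max_eq_right h1.le] at hra
    have hap : 0 < ‖a‖ := by linarith
    have h2 : ‖r a‖ / w (RatFunc.X - RatFunc.C a) ≤ N * ‖a‖ ^ d / δ := by
      apply div_le_div₀ (by positivity) hra hδ hda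
    calc (w RatFunc.X / ‖a‖) ^ (d + 1) * (‖r a‖ / w (RatFunc.X - RatFunc.C a))
        ≤ (T / ‖a‖) ^ (d + 1) * (N * ‖a‖ ^ d / δ) := by
          apply mul_le_mul_of_nonneg_left h2
          positivity
      _ = T ^ (d + 1) * (N / δ) / ‖a‖ := by
          rw [div_pow, pow_succ ‖a‖]
          field_simp
      _ ≤ T ^ (d + 1) * (N / δ) := div_le_self (by positivity) h1.le
  · rw [if_neg h1, map_zero, sub_zero, map_div₀, hc]
    push Not at h1
    rw [max_eq_left h1, one_pow, mul_one] at hra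
    exact le_max_of_le_left (div_le_div₀ hN0 hra hδ hda)

end

end P025H219
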